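import Vale.Agent.P180.Int.LL

set_option linter.all false

/-!
P180: reduction of the homogeneous units of a corner (the first part of `Int.Tw`, so that the files
which need it do not wait for the main theorem of `Int.Tw`).
-/

namespace Vale.Agent.P180.R2.H259.Bd

open IsLocalRing
open Vale.Agent.P180 Vale.Agent.P180.I

variable {O : Type*} [CommRing O] [IsLocalRing O] {G : Type*} [Group G] [Finite G] {i : MonoidAlgebra O G}

/-- Reduction of corners. -/
noncomputable def rdK (hi : IsIdempotentElem i) (hi' : IsIdempotentElem (rd i)) :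
    hi.Corner →+* hi'.Corner where
  toFun x := cornerOf hi' (rd x.1) (by rw [← map_mul, corner_left hi x])
    (by rw [← map_mul, corner_right hi x])
  map_one' := rfl
  map_mul' x y := corner_ext (map_mul rd x.1 y.1)
  map_zero' := corner_ext (map_zero rd)
  map_add' x y := corner_ext (map_add rd x.1 y.1)

variable {N : Subgroup G} [N.Normal] {hi : IsIdempotentElem i} {hN : Sp (N : Set G) i}
variable {hi' : IsIdempotentElem (rd i)} {hN' : rd i ∈ SubAlg (ResidueField O) N}

/-- Reduction of homogeneous units. -/
noncomputable def rdV (hi' : IsIdempotentElem (rd i)) (hN' : rd i ∈ SubAlg (ResidueField O) N) :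
    HO N hi hN →* KP.HU N hi' hN' where
  toFun u := ⟨(Units.map (rdK hi hi' : hi.Corner →* hi'.Corner) u.1.1, u.1.2),
    ⟨Sp.rd u.2.1, Sp.rd u.2.2⟩⟩
  map_one' := Subtype.ext (Prod.ext (map_one _) rfl)
  map_mul' u w := Subtype.ext (Prod.ext (map_mul _ _ _) rfl)

theorem hv_rdV (u : HO N hi hN) : KP.hv (rdV hi' hN' u) = rd (ho u) := rfl

theorem deg_rdV (u : HO N hi hN) : KP.deg (rdV hi' hN' u) = dg u := rfl

end Vale.Agent.P180.R2.H259.Bd
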